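import Mathlib
import Vale.Agent.P315.H330.Atoms

/-!
Heavy windows of a jittered, weighted average of antitone curves (P315, step 2 of the accounting
theorem, row MS-e), by second moments and in expectation.

`I` = children, `w` = weights, `c i` = curve of child `i` (antitone, values in `[0,1]`), read at
index `b - xi i` with independent uniform jitters `xi i` in `{0..J}`; `cv xi` = curve of the
parent, `0 <= gain = (sum_i w i * c i (b - xi i)) - cv xi b`.  A window is `[b + a, b + a + L)`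
with `a <= 0 < a + L` (so it contains `b`).  `G` = set of good children (small weights).
-/

set_option autoImplicit false

open Finset

namespace Vale.Agent.P315.H335

open Vale.Agent.P315.H330 (av av_const av_add av_sub av_mul av_mono av_nonneg av_sum av_coord
  av_coord_mul)

/-- drop of the curve over the window of length `L` starting at `b` -/
def wd (c : ℤ → ℝ) (L : ℕ) (b : ℤ) : ℝ := c b - c (b + L)

lemma wd_nonneg {c : ℤ → ℝ} (hc : Antitone c) (L : ℕ) (b : ℤ) : 0 ≤ wd c L b := by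
  have : c (b + L) ≤ c b := hc (by omega)
  unfold wd; linarith

lemma wd_le_one {c : ℤ → ℝ} (h0 : ∀ b, 0 ≤ c b) (h1 : ∀ b, c b ≤ 1) (L : ℕ) (b : ℤ) :
    wd c L b ≤ 1 := by
  have := h0 (b + L); have := h1 b
  unfold wd; linarith

lemma wd_sum (c : ℤ → ℝ) (L : ℕ) (b : ℤ) :
    wd c L b = ∑ t ∈ range L, wd c 1 (b + t) := by
  induction L with
  | zero => simp [wd]
  | succ L ih =>
    rw [Finset.sum_range_succ, ← ih]
    unfold wd
    push_cast
    have : b + ((L : ℤ) + 1) = b + L + 1 := by ring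
    rw [this]; ring

/-- the drops at different indices sum up to at most one -/
lemma sum_wd_one {c : ℤ → ℝ} (hc : Antitone c) (h0 : ∀ b, 0 ≤ c b) (h1 : ∀ b, c b ≤ 1)
    (S : Finset ℤ) : ∑ b ∈ S, wd c 1 b ≤ 1 := by
  classical
  obtain ⟨A, hA⟩ : ∃ A : ℤ, ∀ b ∈ S, A ≤ b := by
    rcases S.eq_empty_or_nonempty with h | h
    · exact ⟨0, by simp [h]⟩
    · exact ⟨S.min' h, fun b hb => S.min'_le b hb⟩
  obtain ⟨B, hB⟩ : ∃ B : ℤ, ∀ b ∈ S, b ≤ B := by
    rcases S.eq_empty_or_nonempty with h | h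
    · exact ⟨0, by simp [h]⟩
    · exact ⟨S.max' h, fun b hb => S.le_max' b hb⟩
  have hsub : S ⊆ (range (B + 1 - A).toNat).image (fun k : ℕ => A + (k : ℤ)) := by
    intro b hb
    have h1 := hA b hb
    have h2 := hB b hb
    rw [Finset.mem_image]
    refine ⟨(b - A).toNat, ?_, ?_⟩
    · rw [Finset.mem_range]; omega
    · show A + (((b - A).toNat : ℕ) : ℤ) = b
      omega
  calc ∑ b ∈ S, wd c 1 b
      ≤ ∑ b ∈ (range (B + 1 - A).toNat).image (fun k : ℕ => A + (k : ℤ)), wd c 1 b :=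
        Finset.sum_le_sum_of_subset_of_nonneg hsub fun b _ _ => wd_nonneg hc 1 b
    _ = ∑ k ∈ range (B + 1 - A).toNat, wd c 1 (A + (k : ℤ)) := by
        rw [Finset.sum_image]
        intro x _ y _ h
        have h' : A + (x : ℤ) = A + (y : ℤ) := h
        have : (x : ℤ) = (y : ℤ) := by linarith
        exact_mod_cast this
    _ = wd c (B + 1 - A).toNat A := (wd_sum c _ A).symm
    _ ≤ 1 := wd_le_one h0 h1 _ _

lemma sum_wd_one_shift {c : ℤ → ℝ} (hc : Antitone c) (h0 : ∀ b, 0 ≤ c b) (h1 : ∀ b, c b ≤ 1)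
    (S : Finset ℤ) (z : ℤ) : ∑ b ∈ S, wd c 1 (b - z) ≤ 1 := by
  classical
  have hi : Set.InjOn (fun b : ℤ => b - z) S := by
    intro b _ d _ h
    have h' : b - z = d - z := h
    linarith
  rw [← Finset.sum_image (f := fun d => wd c 1 d) hi]
  exact sum_wd_one hc h0 h1 _

/-- a window of length `L` is hit by the jittered mass with probability at most `L / (J+1)` -/
lemma av_wd {c : ℤ → ℝ} (hc : Antitone c) (h0 : ∀ b, 0 ≤ c b) (h1 : ∀ b, c b ≤ 1)
    (L J : ℕ) (z : ℤ) :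
    av (fun x : Fin (J + 1) => wd c L (z - ((x : ℕ) : ℤ))) ≤ (L : ℝ) / ((J : ℝ) + 1) := by
  classical
  have e : ∑ x : Fin (J + 1), wd c L (z - ((x : ℕ) : ℤ)) ≤ (L : ℝ) := by
    calc ∑ x : Fin (J + 1), wd c L (z - ((x : ℕ) : ℤ))
        = ∑ x : Fin (J + 1), ∑ t ∈ range L, wd c 1 (z - ((x : ℕ) : ℤ) + t) :=
          Finset.sum_congr rfl fun x _ => wd_sum c L _
      _ = ∑ t ∈ range L, ∑ x : Fin (J + 1), wd c 1 (z - ((x : ℕ) : ℤ) + t) :=
          Finset.sum_comm
      _ ≤ ∑ t ∈ range L, (1 : ℝ) := by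
          refine Finset.sum_le_sum fun t _ => ?_
          have hi : Set.InjOn (fun x : Fin (J + 1) => z - ((x : ℕ) : ℤ) + t)
              (Finset.univ : Finset (Fin (J + 1))) := by
            intro x _ y _ h
            have h' : z - ((x : ℕ) : ℤ) + t = z - ((y : ℕ) : ℤ) + t := h
            have : ((x : ℕ) : ℤ) = ((y : ℕ) : ℤ) := by linarith
            exact Fin.ext (by exact_mod_cast this)
          rw [← Finset.sum_image (f := fun d => wd c 1 d) hi]
          exact sum_wd_one hc h0 h1 _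
      _ = (L : ℝ) := by simp
  have hJ : (0 : ℝ) < (J : ℝ) + 1 := by positivity
  simp only [av, Fintype.card_fin]
  push_cast
  exact div_le_div_of_nonneg_right e hJ.le

section Main

variable {I : Type*} [Fintype I] [DecidableEq I]

/-- **Second moment.** -/
theorem second_moment {w : I → ℝ} (hw : ∀ i, 0 ≤ w i) (hw1 : ∑ i, w i ≤ 1) (G : Finset I)
    {c : I → ℤ → ℝ} (hc : ∀ i, Antitone (c i)) (h0 : ∀ i b, 0 ≤ c i b) (h1 : ∀ i b, c i b ≤ 1)
    (J L : ℕ) (a : ℤ) (S : Finset ℤ) :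
    av (fun xi : I → Fin (J + 1) => ∑ b ∈ S,
      (∑ i ∈ G, w i * wd (c i) 1 (b - ((xi i : ℕ) : ℤ))) *
        (∑ j, w j * wd (c j) L (b + a - ((xi j : ℕ) : ℤ)))) ≤
      ∑ i ∈ G, w i ^ 2 + (L : ℝ) / ((J : ℝ) + 1) := by
  set q : ℝ := (L : ℝ) / ((J : ℝ) + 1) with hq
  have hq0 : 0 ≤ q := by positivity
  -- the pair terms
  set T : I → I → ℝ := fun i j => ∑ b ∈ S, av (fun xi : I → Fin (J + 1) =>
    wd (c i) 1 (b - ((xi i : ℕ) : ℤ)) * wd (c j) L (b + a - ((xi j : ℕ) : ℤ))) with hT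
  have hTij : ∀ i j, T i j ≤ (if i = j then 1 else 0) + q := by
    intro i j
    by_cases hij : i = j
    · subst hij
      rw [if_pos rfl]
      have : T i i ≤ 1 := by
        simp only [hT]
        rw [← av_sum]
        calc av (fun xi : I → Fin (J + 1) => ∑ b ∈ S,
              wd (c i) 1 (b - ((xi i : ℕ) : ℤ)) * wd (c i) L (b + a - ((xi i : ℕ) : ℤ)))
            ≤ av (fun _ : I → Fin (J + 1) => (1 : ℝ)) := by
              refine av_mono fun xi => ?_
              refine le_trans (Finset.sum_le_sum fun b _ => ?_)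
                (sum_wd_one_shift (hc i) (h0 i) (h1 i) S ((xi i : ℕ) : ℤ))
              have e1 := wd_nonneg (hc i) 1 (b - ((xi i : ℕ) : ℤ))
              have e2 := wd_le_one (h0 i) (h1 i) L (b + a - ((xi i : ℕ) : ℤ))
              nlinarith
          _ = 1 := av_const _
      linarith
    · rw [if_neg hij, zero_add]
      simp only [hT]
      calc ∑ b ∈ S, av (fun xi : I → Fin (J + 1) =>
              wd (c i) 1 (b - ((xi i : ℕ) : ℤ)) * wd (c j) L (b + a - ((xi j : ℕ) : ℤ)))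
          = ∑ b ∈ S, av (fun x : Fin (J + 1) => wd (c i) 1 (b - ((x : ℕ) : ℤ))) *
              av (fun x : Fin (J + 1) => wd (c j) L (b + a - ((x : ℕ) : ℤ))) :=
            Finset.sum_congr rfl fun b _ =>
              av_coord_mul (fun x : Fin (J + 1) => wd (c i) 1 (b - ((x : ℕ) : ℤ)))
                (fun x : Fin (J + 1) => wd (c j) L (b + a - ((x : ℕ) : ℤ))) hij
        _ ≤ ∑ b ∈ S, av (fun x : Fin (J + 1) => wd (c i) 1 (b - ((x : ℕ) : ℤ))) * q :=
            Finset.sum_le_sum fun b _ => mul_le_mul_of_nonneg_left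
              (av_wd (hc j) (h0 j) (h1 j) L J _)
              (av_nonneg fun x => wd_nonneg (hc i) 1 _)
        _ = (∑ b ∈ S, av (fun x : Fin (J + 1) => wd (c i) 1 (b - ((x : ℕ) : ℤ)))) * q :=
            (Finset.sum_mul _ _ _).symm
        _ ≤ 1 * q := by
            refine mul_le_mul_of_nonneg_right ?_ hq0
            rw [← av_sum]
            calc av (fun x : Fin (J + 1) => ∑ b ∈ S, wd (c i) 1 (b - ((x : ℕ) : ℤ)))
                ≤ av (fun _ : Fin (J + 1) => (1 : ℝ)) :=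
                  av_mono fun x => sum_wd_one_shift (hc i) (h0 i) (h1 i) S _
              _ = 1 := av_const _
        _ = q := one_mul _
  -- expansion
  have hexp : av (fun xi : I → Fin (J + 1) => ∑ b ∈ S,
      (∑ i ∈ G, w i * wd (c i) 1 (b - ((xi i : ℕ) : ℤ))) *
        (∑ j, w j * wd (c j) L (b + a - ((xi j : ℕ) : ℤ)))) =
      ∑ i ∈ G, ∑ j, w i * w j * T i j := by
    have e1 : ∀ xi : I → Fin (J + 1), (∑ b ∈ S,
        (∑ i ∈ G, w i * wd (c i) 1 (b - ((xi i : ℕ) : ℤ))) *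
          (∑ j, w j * wd (c j) L (b + a - ((xi j : ℕ) : ℤ)))) =
        ∑ i ∈ G, ∑ j, ∑ b ∈ S, w i * w j *
          (wd (c i) 1 (b - ((xi i : ℕ) : ℤ)) * wd (c j) L (b + a - ((xi j : ℕ) : ℤ))) := by
      intro xi
      have : ∀ b ∈ S, (∑ i ∈ G, w i * wd (c i) 1 (b - ((xi i : ℕ) : ℤ))) *
          (∑ j, w j * wd (c j) L (b + a - ((xi j : ℕ) : ℤ))) =
          ∑ i ∈ G, ∑ j, w i * w j *
          (wd (c i) 1 (b - ((xi i : ℕ) : ℤ)) * wd (c j) L (b + a - ((xi j : ℕ) : ℤ))) := by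
        intro b _
        rw [Finset.sum_mul_sum]
        refine Finset.sum_congr rfl fun i _ => Finset.sum_congr rfl fun j _ => ?_
        ring
      rw [Finset.sum_congr rfl this, Finset.sum_comm]
      refine Finset.sum_congr rfl fun i _ => ?_
      rw [Finset.sum_comm]
    simp only [e1]
    rw [av_sum]
    refine Finset.sum_congr rfl fun i _ => ?_
    rw [av_sum]
    refine Finset.sum_congr rfl fun j _ => ?_
    rw [av_sum]
    simp only [hT]
    rw [Finset.mul_sum]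
    exact Finset.sum_congr rfl fun b _ => av_mul _ _
  rw [hexp]
  have hGle : ∑ i ∈ G, w i ≤ 1 := le_trans
    (Finset.sum_le_sum_of_subset_of_nonneg (Finset.subset_univ G) fun i _ _ => hw i) hw1
  calc ∑ i ∈ G, ∑ j, w i * w j * T i j
      ≤ ∑ i ∈ G, ∑ j, w i * w j * ((if i = j then 1 else 0) + q) :=
        Finset.sum_le_sum fun i _ => Finset.sum_le_sum fun j _ =>
          mul_le_mul_of_nonneg_left (hTij i j) (mul_nonneg (hw i) (hw j))
    _ = ∑ i ∈ G, (w i ^ 2 + w i * (q * ∑ j, w j)) := by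
        refine Finset.sum_congr rfl fun i _ => ?_
        have : ∀ j, w i * w j * ((if i = j then 1 else 0) + q) =
            (if i = j then w i * w j else 0) + w i * q * w j := by
          intro j; split_ifs <;> ring
        simp only [this]
        rw [Finset.sum_add_distrib, Finset.sum_ite_eq Finset.univ i, if_pos (Finset.mem_univ i),
          ← Finset.mul_sum]
        ring
    _ ≤ ∑ i ∈ G, (w i ^ 2 + w i * q) := by
        refine Finset.sum_le_sum fun i _ => ?_
        have : q * ∑ j, w j ≤ q * 1 := mul_le_mul_of_nonneg_left hw1 hq0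
        have := mul_le_mul_of_nonneg_left this (hw i)
        linarith
    _ = ∑ i ∈ G, w i ^ 2 + (∑ i ∈ G, w i) * q := by
        rw [Finset.sum_add_distrib, Finset.sum_mul]
    _ ≤ ∑ i ∈ G, w i ^ 2 + 1 * q := by
        have := mul_le_mul_of_nonneg_right hGle hq0
        linarith
    _ = ∑ i ∈ G, w i ^ 2 + q := by rw [one_mul]

/-- the weighted jittered average of the children -/
noncomputable def mix (w : I → ℝ) (c : I → ℤ → ℝ) {J : ℕ} (xi : I → Fin (J + 1)) (b : ℤ) : ℝ :=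
  ∑ i, w i * c i (b - ((xi i : ℕ) : ℤ))

omit [DecidableEq I] in
lemma wd_mix (w : I → ℝ) (c : I → ℤ → ℝ) {J : ℕ} (xi : I → Fin (J + 1)) (L : ℕ) (b : ℤ) :
    wd (mix w c xi) L b = ∑ i, w i * wd (c i) L (b - ((xi i : ℕ) : ℤ)) := by
  unfold wd mix
  rw [← Finset.sum_sub_distrib]
  refine Finset.sum_congr rfl fun i _ => ?_
  have : b + (L : ℤ) - ((xi i : ℕ) : ℤ) = b - ((xi i : ℕ) : ℤ) + L := by ring
  rw [this]; ring

/-- One index: if the window of the parent is heavy, its drop at `b` is paid by the gains or by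
`mix * mix-window` (good children) or by the bad children. -/
lemma pay_one {p P Zg Zb ZL h1 h2 th s : ℝ} (hth : 0 < th) (hs : 0 < s) (hs1 : s < 1)
    (hp : p ≤ Zg + Zb + h1) (hpP : p ≤ P) (hP : P ≤ ZL + h2) (hZg : 0 ≤ Zg)
    (hZb : 0 ≤ Zb) (hZL : 0 ≤ ZL) (hh1 : 0 ≤ h1) (hh2 : 0 ≤ h2) :
    (if th ≤ P then p else 0) ≤ Zb + ((1 - s) * th)⁻¹ * (Zg * ZL) + (h1 + s⁻¹ * h2) := by
  have h1s : 0 < (1 - s) * th := mul_pos (by linarith) hth
  have hinv : 0 < ((1 - s) * th)⁻¹ := inv_pos.2 h1s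
  have hsinv : 0 < s⁻¹ := inv_pos.2 hs
  have hprod : 0 ≤ ((1 - s) * th)⁻¹ * (Zg * ZL) :=
    mul_nonneg hinv.le (mul_nonneg hZg hZL)
  have hsh2 : 0 ≤ s⁻¹ * h2 := mul_nonneg hsinv.le hh2
  split_ifs with hthP
  · by_cases hc : (1 - s) * th ≤ ZL
    · have : Zg ≤ ((1 - s) * th)⁻¹ * (Zg * ZL) := by
        have e : 1 ≤ ((1 - s) * th)⁻¹ * ZL := by
          rw [inv_mul_eq_div, le_div_iff₀ h1s]; linarith
        calc Zg = Zg * 1 := (mul_one _).symm
          _ ≤ Zg * (((1 - s) * th)⁻¹ * ZL) := mul_le_mul_of_nonneg_left e hZg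
          _ = _ := by ring
      linarith
    · have hc' : ZL < (1 - s) * th := lt_of_not_ge hc
      have h3 : (1 - s) * th ≤ (1 - s) * P := mul_le_mul_of_nonneg_left hthP (by linarith)
      have h4 : s * P ≤ h2 := by nlinarith
      have h5 : P ≤ s⁻¹ * h2 := by
        rw [inv_mul_eq_div, le_div_iff₀ hs]; linarith
      linarith
  · positivity

/-- **Heavy windows.** The expected mass of the parent at indices whose window
`[b + a, b + a + L)` carries at least `th` is at most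
(weight of the bad children) + `1 / ((1-s) th)` * (sum of the squares of the good weights
+ `L / (J+1)`) + `(1 + 1/s)` * gains. -/
theorem heavy_windows {w : I → ℝ} (hw : ∀ i, 0 ≤ w i) (hw1 : ∑ i, w i ≤ 1) (G : Finset I)
    {c : I → ℤ → ℝ} (hc : ∀ i, Antitone (c i)) (h0 : ∀ i b, 0 ≤ c i b) (h1 : ∀ i b, c i b ≤ 1)
    {J L : ℕ} {a : ℤ} (ha : a ≤ 0) (haL : 0 < a + L) (S : Finset ℤ)
    {cv : (I → Fin (J + 1)) → ℤ → ℝ} (hcv : ∀ xi, Antitone (cv xi))
    (hgain : ∀ xi b, cv xi b ≤ mix w c xi b)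
    {th s : ℝ} (hth : 0 < th) (hs : 0 < s) (hs1 : s < 1) :
    av (fun xi : I → Fin (J + 1) => ∑ b ∈ S,
      (if th ≤ wd (cv xi) L (b + a) then wd (cv xi) 1 b else 0)) ≤
      ∑ i ∈ Gᶜ, w i + ((1 - s) * th)⁻¹ * (∑ i ∈ G, w i ^ 2 + (L : ℝ) / ((J : ℝ) + 1)) +
        av (fun xi : I → Fin (J + 1) => ∑ b ∈ S,
          ((mix w c xi (b + 1) - cv xi (b + 1)) +
            s⁻¹ * (mix w c xi (b + a + L) - cv xi (b + a + L)))) := by
  have hinv : 0 < ((1 - s) * th)⁻¹ := inv_pos.2 (mul_pos (by linarith) hth)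
  have hpt : ∀ xi : I → Fin (J + 1), ∀ b : ℤ,
      (if th ≤ wd (cv xi) L (b + a) then wd (cv xi) 1 b else 0) ≤
      (∑ i ∈ Gᶜ, w i * wd (c i) 1 (b - ((xi i : ℕ) : ℤ))) +
      ((1 - s) * th)⁻¹ * ((∑ i ∈ G, w i * wd (c i) 1 (b - ((xi i : ℕ) : ℤ))) *
        (∑ j, w j * wd (c j) L (b + a - ((xi j : ℕ) : ℤ)))) +
      ((mix w c xi (b + 1) - cv xi (b + 1)) +
            s⁻¹ * (mix w c xi (b + a + L) - cv xi (b + a + L))) := by
    intro xi b
    have hsplit : (∑ i ∈ G, w i * wd (c i) 1 (b - ((xi i : ℕ) : ℤ))) +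
        (∑ i ∈ Gᶜ, w i * wd (c i) 1 (b - ((xi i : ℕ) : ℤ))) = wd (mix w c xi) 1 b := by
      rw [wd_mix]
      exact Finset.sum_add_sum_compl G _
    have hL : (∑ j, w j * wd (c j) L (b + a - ((xi j : ℕ) : ℤ))) = wd (mix w c xi) L (b + a) :=
      (wd_mix w c xi L (b + a)).symm
    refine pay_one (P := wd (cv xi) L (b + a)) hth hs hs1 ?_ ?_ ?_ ?_ ?_ ?_ ?_ ?_
    · rw [hsplit]
      have := hgain xi b
      unfold wd
      push_cast
      linarith
    · have e1 : cv xi b ≤ cv xi (b + a) := hcv xi (by omega)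
      have e2 : cv xi (b + a + L) ≤ cv xi (b + 1) := hcv xi (by omega)
      unfold wd
      push_cast
      linarith
    · rw [hL]
      have := hgain xi (b + a)
      unfold wd
      linarith
    · exact Finset.sum_nonneg fun i _ => mul_nonneg (hw i) (wd_nonneg (hc i) 1 _)
    · exact Finset.sum_nonneg fun i _ => mul_nonneg (hw i) (wd_nonneg (hc i) 1 _)
    · exact Finset.sum_nonneg fun i _ => mul_nonneg (hw i) (wd_nonneg (hc i) L _)
    · have := hgain xi (b + 1); linarith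
    · have := hgain xi (b + a + L); linarith
  have hbad : av (fun xi : I → Fin (J + 1) => ∑ b ∈ S,
      (∑ i ∈ Gᶜ, w i * wd (c i) 1 (b - ((xi i : ℕ) : ℤ)))) ≤ ∑ i ∈ Gᶜ, w i := by
    calc av (fun xi : I → Fin (J + 1) => ∑ b ∈ S,
          (∑ i ∈ Gᶜ, w i * wd (c i) 1 (b - ((xi i : ℕ) : ℤ))))
        ≤ av (fun _ : I → Fin (J + 1) => ∑ i ∈ Gᶜ, w i) := by
          refine av_mono fun xi => ?_
          rw [Finset.sum_comm]
          refine Finset.sum_le_sum fun i _ => ?_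
          rw [← Finset.mul_sum]
          have := mul_le_mul_of_nonneg_left
            (sum_wd_one_shift (hc i) (h0 i) (h1 i) S ((xi i : ℕ) : ℤ)) (hw i)
          linarith
      _ = ∑ i ∈ Gᶜ, w i := av_const _
  have hsm := second_moment hw hw1 G hc h0 h1 J L a S
  refine le_trans (av_mono fun xi => Finset.sum_le_sum fun b _ => hpt xi b) ?_
  have e : (fun xi : I → Fin (J + 1) => ∑ b ∈ S,
      ((∑ i ∈ Gᶜ, w i * wd (c i) 1 (b - ((xi i : ℕ) : ℤ))) +
      ((1 - s) * th)⁻¹ * ((∑ i ∈ G, w i * wd (c i) 1 (b - ((xi i : ℕ) : ℤ))) *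
        (∑ j, w j * wd (c j) L (b + a - ((xi j : ℕ) : ℤ)))) +
      ((mix w c xi (b + 1) - cv xi (b + 1)) +
            s⁻¹ * (mix w c xi (b + a + L) - cv xi (b + a + L))))) =
      fun xi => ((∑ b ∈ S, ∑ i ∈ Gᶜ, w i * wd (c i) 1 (b - ((xi i : ℕ) : ℤ))) +
        ((1 - s) * th)⁻¹ * ∑ b ∈ S, (∑ i ∈ G, w i * wd (c i) 1 (b - ((xi i : ℕ) : ℤ))) *
        (∑ j, w j * wd (c j) L (b + a - ((xi j : ℕ) : ℤ)))) +
        ∑ b ∈ S, ((mix w c xi (b + 1) - cv xi (b + 1)) +
            s⁻¹ * (mix w c xi (b + a + L) - cv xi (b + a + L))) := by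
    funext xi
    rw [Finset.sum_add_distrib, Finset.sum_add_distrib, Finset.mul_sum]
  rw [e, av_add, av_add, av_mul]
  have := mul_le_mul_of_nonneg_left hsm hinv.le
  linarith

end Main

end Vale.Agent.P315.H335
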